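import Vale.Agent.Lib.P216.Defs

namespace Vale.Agent.Lib.P216

variable {Γ : Type*} {X : Type*} [Group Γ] [MetricSpace X] [MulAction Γ X]

theorem IsDeckAction.continuous_smul (h : IsDeckAction Γ X) (g : Γ) :
    Continuous (fun x : X => g • x) :=
  (Isometry.of_dist_eq (h.isom g)).continuous

theorem IsDeckAction.dist_smul_left (h : IsDeckAction Γ X) (g : Γ) (x y : X) :
    dist (g⁻¹ • x) y = dist x (g • y) := by
  rw [← h.isom g (g⁻¹ • x) y, smul_inv_smul]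

/-- the displacement function of `γ` attains its minimum -/
theorem exists_min_displacement (h : IsDeckAction Γ X) [Nonempty X] (γ : Γ) :
    ∃ x0 : X, ∀ x : X, dist x0 (γ • x0) ≤ dist x (γ • x) := by
  classical
  obtain ⟨K, hK, hcov⟩ := h.cocompact
  obtain ⟨x1⟩ := (inferInstance : Nonempty X)
  obtain ⟨g1, hg1⟩ := hcov x1
  set y0 : X := g1 • x1 with hy0
  obtain ⟨R, hR⟩ := (Metric.isBounded_iff_subset_closedBall y0).1 hK.isBounded
  set D0 : ℝ := dist y0 (γ • y0) with hD0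
  let F : Set Γ := {g | dist y0 (g • y0) ≤ 2 * R + D0} ∩ {g | IsConj γ g}
  have hF : F.Finite := (h.proper y0 (2 * R + D0)).subset Set.inter_subset_left
  have hR0 : 0 ≤ R := by
    have := hR hg1
    rw [Metric.mem_closedBall, dist_self] at this
    exact this
  have hγF : γ ∈ F := ⟨by
    show dist y0 (γ • y0) ≤ 2 * R + D0
    linarith, IsConj.refl γ⟩
  let f : Γ → X → ℝ := fun g y => dist y (g • y)
  have hfc : ∀ g, Continuous (f g) := fun g => continuous_id.dist (h.continuous_smul g)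
  let W : Set ℝ := ⋃ g ∈ F, (f g) '' K
  have hW : IsCompact W := hF.isCompact_biUnion (fun g _ => hK.image (hfc g))
  have hD0W : D0 ∈ W := by
    simp only [W, Set.mem_iUnion]
    exact ⟨γ, hγF, y0, hg1, rfl⟩
  obtain ⟨w, hwW, hwmin⟩ := hW.exists_isLeast ⟨D0, hD0W⟩
  simp only [W, Set.mem_iUnion] at hwW
  obtain ⟨γs, hγs, ys, hys, hw⟩ := hwW
  obtain ⟨c, hc⟩ := isConj_iff.1 hγs.2
  refine ⟨c⁻¹ • ys, fun x => ?_⟩
  have e1 : dist (c⁻¹ • ys) (γ • c⁻¹ • ys) = w := by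
    rw [h.dist_smul_left, ← hw, ← hc]
    simp only [f, mul_smul]
  rw [e1]
  obtain ⟨g, hg⟩ := hcov x
  have e2 : dist x (γ • x) = f (g * γ * g⁻¹) (g • x) := by
    simp only [f, mul_smul, inv_smul_smul]
    rw [h.isom]
  by_cases hx : dist x (γ • x) ≤ D0
  · apply hwmin
    simp only [W, Set.mem_iUnion]
    refine ⟨g * γ * g⁻¹, ⟨?_, isConj_iff.2 ⟨g, rfl⟩⟩, g • x, hg, e2.symm⟩
    show dist y0 ((g * γ * g⁻¹) • y0) ≤ 2 * R + D0
    have h1 : dist (g • x) y0 ≤ R := hR hg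
    have h2 : dist ((g * γ * g⁻¹) • (g • x)) ((g * γ * g⁻¹) • y0) ≤ R := by
      rw [h.isom]; exact h1
    have h3 : dist (g • x) ((g * γ * g⁻¹) • (g • x)) ≤ D0 := by
      have := e2; simp only [f] at this; rw [← this]; exact hx
    calc dist y0 ((g * γ * g⁻¹) • y0)
        ≤ dist y0 (g • x) + dist (g • x) ((g * γ * g⁻¹) • (g • x)) +
          dist ((g * γ * g⁻¹) • (g • x)) ((g * γ * g⁻¹) • y0) := dist_triangle4 _ _ _ _
      _ ≤ R + D0 + R := by
          rw [dist_comm y0]; linarith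
      _ = 2 * R + D0 := by ring
  · have := hwmin hD0W
    linarith

/-- The axis of `γ` built from a shortest path `σ` from `x0` to `γ • x0`. -/
noncomputable def axis (γ : Γ) (σ : ℝ → X) (τ : ℝ) (t : ℝ) : X :=
  γ ^ ⌊t / τ⌋ • σ (t - τ * ⌊t / τ⌋)

theorem axis_add (γ : Γ) (σ : ℝ → X) {τ : ℝ} (hτ : 0 < τ) (t : ℝ) :
    axis γ σ τ (t + τ) = γ • axis γ σ τ t := by
  unfold axis
  have h1 : ⌊(t + τ) / τ⌋ = ⌊t / τ⌋ + 1 := by
    rw [add_div, div_self hτ.ne', Int.floor_add_one]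
  rw [h1, add_comm ⌊t / τ⌋ 1, zpow_add, zpow_one, mul_smul]
  have h2 : t + τ - τ * ((1 + ⌊t / τ⌋ : ℤ) : ℝ) = t - τ * (⌊t / τ⌋ : ℝ) := by
    push_cast
    ring
  rw [h2]

theorem axis_eq (γ : Γ) (σ : ℝ → X) {τ : ℝ} (hτ : 0 < τ) (n : ℤ) {a : ℝ} (ha0 : 0 ≤ a)
    (ha : a < τ) : axis γ σ τ (n * τ + a) = γ ^ n • σ a := by
  unfold axis
  have h1 : ⌊(n * τ + a) / τ⌋ = n := by
    rw [Int.floor_eq_iff]
    constructor
    · rw [le_div_iff₀ hτ]; linarith
    · rw [div_lt_iff₀ hτ]; linarith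
  rw [h1]
  congr 2
  ring

theorem exists_rep {τ : ℝ} (hτ : 0 < τ) (s : ℝ) : ∃ (n : ℤ) (a : ℝ), 0 ≤ a ∧ a < τ ∧
    s = n * τ + a := by
  refine ⟨⌊s / τ⌋, s - ⌊s / τ⌋ * τ, ?_, ?_, by ring⟩
  · have := Int.floor_le (s / τ)
    rw [le_div_iff₀ hτ] at this
    linarith
  · have := Int.lt_floor_add_one (s / τ)
    rw [div_lt_iff₀ hτ] at this
    linarith

/-- the axis is distance-realising on every interval of length at most `τ` -/
theorem axis_dist (h : IsDeckAction Γ X) (γ : Γ) (x0 : X)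
    (hmin : ∀ x : X, dist x0 (γ • x0) ≤ dist x (γ • x)) (σ : ℝ → X) (hσ0 : σ 0 = x0)
    (hσ1 : σ (dist x0 (γ • x0)) = γ • x0)
    (hσ : ∀ s ∈ Set.Icc 0 (dist x0 (γ • x0)), ∀ t ∈ Set.Icc 0 (dist x0 (γ • x0)),
      dist (σ s) (σ t) = |s - t|)
    (hτ : 0 < dist x0 (γ • x0)) (s t : ℝ) (hst : s ≤ t) (hts : t - s ≤ dist x0 (γ • x0)) :
    dist (axis γ σ (dist x0 (γ • x0)) s) (axis γ σ (dist x0 (γ • x0)) t) = t - s := by
  set τ := dist x0 (γ • x0) with hτdef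
  obtain ⟨n, a, ha0, ha, rfl⟩ := exists_rep hτ s
  rw [axis_eq γ σ hτ n ha0 ha]
  by_cases hb : t - n * τ < τ
  · have ht : t = n * τ + (t - n * τ) := by ring
    have hb0 : 0 ≤ t - n * τ := by linarith
    rw [ht, axis_eq γ σ hτ n hb0 hb, h.isom, hσ a ⟨ha0, ha.le⟩ _ ⟨hb0, hb.le⟩,
      abs_of_nonpos (by linarith)]
    ring
  · push Not at hb
    set u : ℝ := t - n * τ - τ with hu
    have hu0 : 0 ≤ u := by linarith
    have hua : u ≤ a := by linarith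
    have ht : t = ((n + 1 : ℤ) : ℝ) * τ + u := by push_cast; rw [hu]; ring
    rw [ht, axis_eq γ σ hτ (n + 1) hu0 (by linarith), zpow_add, zpow_one, mul_smul, h.isom]
    have hgoal : ((n + 1 : ℤ) : ℝ) * τ + u - (n * τ + a) = τ - a + u := by push_cast; ring
    rw [hgoal]
    apply le_antisymm
    · calc dist (σ a) (γ • σ u) ≤ dist (σ a) (σ τ) + dist (σ τ) (γ • σ u) := dist_triangle _ _ _
        _ = (τ - a) + u := by
          rw [hσ a ⟨ha0, ha.le⟩ τ ⟨hτ.le, le_rfl⟩, hσ1, ← hσ0, h.isom,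
            hσ 0 ⟨le_rfl, hτ.le⟩ u ⟨hu0, by linarith⟩, abs_of_nonpos (by linarith),
            abs_of_nonpos (by linarith)]
          ring
    · have h1 : τ ≤ dist (σ a) (γ • σ a) := hmin (σ a)
      have h2 : dist (σ a) (γ • σ a) ≤ dist (σ a) (γ • σ u) + dist (γ • σ u) (γ • σ a) :=
        dist_triangle _ _ _
      rw [h.isom, hσ u ⟨hu0, by linarith⟩ a ⟨ha0, ha.le⟩, abs_of_nonpos (by linarith)] at h2
      linarith

/-- every nontrivial `γ` has an axis: a closed geodesic translated by `γ` -/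
theorem exists_axis (h : IsDeckAction Γ X) [Nonempty X] (γ : Γ) (hγ : γ ≠ 1) :
    ∃ (c : ℝ → X) (τ : ℝ), 0 < τ ∧ IsGeodesic c ∧ ∀ t, c (t + τ) = γ • c t := by
  obtain ⟨x0, hmin⟩ := exists_min_displacement h γ
  have hτ : 0 < dist x0 (γ • x0) := by
    rw [dist_pos]
    intro he
    exact hγ (h.free γ x0 he.symm)
  obtain ⟨σ, hσ0, hσ1, hσ⟩ := h.geodesic x0 (γ • x0)
  refine ⟨axis γ σ (dist x0 (γ • x0)), dist x0 (γ • x0), hτ, ?_, axis_add γ σ hτ⟩
  intro t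
  refine ⟨dist x0 (γ • x0) / 2, by positivity, ?_⟩
  intro s hs s' hs'
  rw [Set.mem_Ioo] at hs hs'
  rcases le_total s s' with hle | hle
  · rw [axis_dist h γ x0 hmin σ hσ0 hσ1 hσ hτ s s' hle (by linarith), abs_of_nonpos (by linarith)]
    ring
  · rw [dist_comm, axis_dist h γ x0 hmin σ hσ0 hσ1 hσ hτ s' s hle (by linarith),
      abs_of_nonneg (by linarith)]

end Vale.Agent.Lib.P216
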