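import Mathlib

namespace Vale.Agent.Lib.P216

/-- Every element of `G` is conjugate to an integer power of one of finitely many elements. -/
def PowerConjCovered (G : Type*) [Group G] : Prop :=
  ∃ S : Finset G, ∀ g : G, ∃ s ∈ S, ∃ m : ℤ, IsConj g (s ^ m)

/-- `G` is residually finite: every nontrivial element is missed by some normal subgroup of
finite index. -/
def ResFinite (G : Type*) [Group G] : Prop :=
  ∀ g : G, g ≠ 1 → ∃ N : Subgroup G, N.Normal ∧ N.FiniteIndex ∧ g ∉ N

/-- A unit-speed geodesic line in a metric space: a curve that is locally distance-realising. -/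
def IsGeodesic {X : Type*} [MetricSpace X] (c : ℝ → X) : Prop :=
  ∀ t : ℝ, ∃ ε > 0, ∀ s ∈ Set.Ioo (t - ε) (t + ε), ∀ s' ∈ Set.Ioo (t - ε) (t + ε),
    dist (c s) (c s') = |s - s'|

/-- The properties of the deck-group action of `Γ = π₁(M)` on the universal cover `X` of a closed
Riemannian manifold `M` (with the lifted distance) that are used: the action is isometric, free,
properly discontinuous and cocompact; any two points of `X` are joined by a shortest path; and
geodesics do not branch. -/
structure IsDeckAction (Γ : Type*) (X : Type*) [Group Γ] [MetricSpace X] [MulAction Γ X] :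
    Prop where
  isom : ∀ (g : Γ) (x y : X), dist (g • x) (g • y) = dist x y
  free : ∀ (g : Γ) (x : X), g • x = x → g = 1
  proper : ∀ (x : X) (r : ℝ), {g : Γ | dist x (g • x) ≤ r}.Finite
  cocompact : ∃ K : Set X, IsCompact K ∧ ∀ x : X, ∃ g : Γ, g • x ∈ K
  geodesic : ∀ x y : X, ∃ σ : ℝ → X, σ 0 = x ∧ σ (dist x y) = y ∧
    ∀ s ∈ Set.Icc 0 (dist x y), ∀ t ∈ Set.Icc 0 (dist x y), dist (σ s) (σ t) = |s - t|
  nonbranching : ∀ c c' : ℝ → X, IsGeodesic c → IsGeodesic c' →
    (∃ a b : ℝ, a < b ∧ ∀ t ∈ Set.Ioo a b, c t = c' t) → c = c'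

/-- A closed geodesic of the quotient `X / Γ`, given by its lift to `X`: a unit-speed geodesic line
`c` in `X` that is periodic modulo `Γ`. -/
def IsClosedGeodesic (Γ : Type*) {X : Type*} [Group Γ] [MetricSpace X] [MulAction Γ X]
    (c : ℝ → X) : Prop :=
  IsGeodesic c ∧ ∃ g : Γ, ∃ τ > 0, ∀ t, c (t + τ) = g • c t

/-- The preimage in `X` of the image of the closed geodesic in the quotient `X / Γ`. -/
def trace (Γ : Type*) {X : Type*} [Group Γ] [MetricSpace X] [MulAction Γ X] (c : ℝ → X) : Set X :=
  {x | ∃ (g : Γ) (t : ℝ), x = g • c t}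

end Vale.Agent.Lib.P216
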