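import Vale.Agent.Lib.P216.Rigidity
import Vale.Agent.Lib.P216.Group

namespace Vale.Agent.Lib.P216

variable {Γ : Type*} {X : Type*} [Group Γ] [MetricSpace X] [MulAction Γ X]

theorem exists_pos_lower_bound {S : Set ℝ} (hS : S.Finite) :
    ∃ a : ℝ, 0 < a ∧ ∀ s ∈ S, 0 < s → a ≤ s := by
  induction S, hS using Set.Finite.induction_on with
  | empty => exact ⟨1, one_pos, by simp⟩
  | @insert x S _ _ ih =>
    obtain ⟨a, ha, h⟩ := ih
    by_cases hx : 0 < x
    · refine ⟨min a x, lt_min ha hx, ?_⟩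
      intro s hs hs0
      rcases hs with rfl | hs
      · exact min_le_right _ _
      · exact (min_le_left _ _).trans (h s hs hs0)
    · refine ⟨a, ha, ?_⟩
      intro s hs hs0
      rcases hs with rfl | hs
      · exact absurd hs0 hx
      · exact h s hs hs0

/-- the elements of `Γ` that translate a geodesic line along itself form a cyclic group -/
theorem exists_period_generator (h : IsDeckAction Γ X) {c : ℝ → X} (hc : IsGeodesic c) :
    ∃ g0 : Γ, ∀ (g : Γ) (τ : ℝ), (∀ u, g • c u = c (u + τ)) → ∃ m : ℤ, g = g0 ^ m := by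
  classical
  let T : AddSubgroup ℝ :=
    { carrier := {τ | ∃ g : Γ, ∀ u, g • c u = c (u + τ)}
      add_mem' := by
        rintro a b ⟨g, hg⟩ ⟨g', hg'⟩
        refine ⟨g' * g, fun u => ?_⟩
        rw [mul_smul, hg, hg', add_assoc]
      zero_mem' := ⟨1, fun u => by simp⟩
      neg_mem' := by
        rintro a ⟨g, hg⟩
        refine ⟨g⁻¹, fun u => ?_⟩
        rw [inv_smul_eq_iff, hg]
        congr 1; ring }
  obtain ⟨ε, hε, hiso⟩ := hc 0
  have hFin := h.proper (c 0) ε
  obtain ⟨a, ha, hlow⟩ := exists_pos_lower_bound (hFin.image (fun g => dist (c 0) (g • c 0)))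
  have hdisj : Disjoint (T : Set ℝ) (Set.Ioo 0 (min a ε)) := by
    rw [Set.disjoint_left]
    rintro τ ⟨g, hg⟩ ⟨h0, h1⟩
    have hτε : τ < ε := lt_of_lt_of_le h1 (min_le_right _ _)
    have hd : dist (c 0) (g • c 0) = τ := by
      rw [hg 0, zero_add, hiso 0 ⟨by linarith, by linarith⟩ τ ⟨by linarith, by linarith⟩]
      rw [zero_sub, abs_neg, abs_of_pos h0]
    have : a ≤ τ := by
      apply hlow τ ⟨g, ?_, hd⟩ h0
      show dist (c 0) (g • c 0) ≤ ε
      rw [hd]; exact hτε.le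
    have : τ < a := lt_of_lt_of_le h1 (min_le_left _ _)
    linarith
  obtain ⟨b, hb⟩ := AddSubgroup.cyclic_of_isolated_zero (lt_min ha hε) hdisj
  have hbT : b ∈ T := by rw [hb]; exact AddSubgroup.subset_closure rfl
  obtain ⟨g0, hg0⟩ := hbT
  have hpow : ∀ (m : ℤ) (u : ℝ), g0 ^ m • c u = c (u + m * b) := by
    intro m
    induction m using Int.induction_on with
    | zero => intro u; simp
    | succ n ih =>
      intro u
      rw [zpow_add, zpow_one, mul_smul, hg0, ih]
      congr 1; push_cast; ring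
    | pred n ih =>
      intro u
      have h1 : g0 ^ (-(n : ℤ) - 1) = g0 ^ (-(n : ℤ)) * g0⁻¹ := by
        rw [sub_eq_add_neg, zpow_add, zpow_neg_one]
      have : g0⁻¹ • c u = c (u - b) := by
        rw [inv_smul_eq_iff, hg0]; congr 1; ring
      rw [h1, mul_smul, this, ih]
      congr 1; push_cast; ring
  refine ⟨g0, fun g τ hg => ?_⟩
  have hτT : τ ∈ T := ⟨g, hg⟩
  rw [hb, AddSubgroup.mem_closure_singleton] at hτT
  obtain ⟨m, hm⟩ := hτT
  refine ⟨m, ?_⟩
  have h1 : g • c 0 = g0 ^ m • c 0 := by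
    rw [hg, hpow, ← hm]; simp
  have h2 : ((g0 ^ m)⁻¹ * g) • c 0 = c 0 := by
    rw [mul_smul, h1, inv_smul_smul]
  have h3 := h.free _ _ h2
  rw [inv_mul_eq_one] at h3
  exact h3.symm

/-- If the quotient has only finitely many geometrically distinct closed geodesics, then every
element of `Γ` is conjugate to a power of one of finitely many elements. -/
theorem covered_of_finite_traces (h : IsDeckAction Γ X) [Nonempty X]
    (hfin : {A : Set X | ∃ c : ℝ → X, IsClosedGeodesic Γ c ∧ trace Γ c = A}.Finite) :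
    PowerConjCovered Γ := by
  classical
  have hch : ∀ A : Set X, ∃ g0 : Γ, (∃ c : ℝ → X, IsClosedGeodesic Γ c ∧ trace Γ c = A) →
      ∃ c : ℝ → X, IsClosedGeodesic Γ c ∧ trace Γ c = A ∧
        ∀ (g : Γ) (τ : ℝ), (∀ u, g • c u = c (u + τ)) → ∃ m : ℤ, g = g0 ^ m := by
    intro A
    by_cases hA : ∃ c : ℝ → X, IsClosedGeodesic Γ c ∧ trace Γ c = A
    · obtain ⟨c, hc, hcA⟩ := hA
      obtain ⟨g0, hg0⟩ := exists_period_generator h hc.1
      exact ⟨g0, fun _ => ⟨c, hc, hcA, hg0⟩⟩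
    · exact ⟨1, fun hh => absurd hh hA⟩
  choose G hG using hch
  refine ⟨insert 1 (hfin.toFinset.image G), fun γ => ?_⟩
  by_cases hγ : γ = 1
  · exact ⟨1, Finset.mem_insert_self _ _, 0, by rw [hγ]; simp⟩
  obtain ⟨c', τ, hτ, hc', hper⟩ := exists_axis h γ hγ
  have hcl : IsClosedGeodesic Γ c' := ⟨hc', γ, τ, hτ, hper⟩
  have hmem : ∃ c : ℝ → X, IsClosedGeodesic Γ c ∧ trace Γ c = trace Γ c' := ⟨c', hcl, rfl⟩
  obtain ⟨c, hc, hcA, hgen⟩ := hG (trace Γ c') hmem
  have hsub : ∀ t, c' t ∈ trace Γ c := by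
    intro t
    rw [hcA]
    exact ⟨1, t, by simp⟩
  obtain ⟨g, e, b, he, hrig⟩ := rigidity h hc.1 hc' hsub
  have hee : e * e = 1 := by rcases he with rfl | rfl <;> norm_num
  have htrans : ∀ u, (g⁻¹ * γ * g) • c u = c (u + e * τ) := by
    intro u
    have h1 := hper (e * (u - b))
    rw [hrig, hrig] at h1
    have e1 : e * (e * (u - b)) + b = u := by
      rw [← mul_assoc, hee]; ring
    have e2 : e * (e * (u - b) + τ) + b = u + e * τ := by
      rw [mul_add, ← mul_assoc, hee]; ring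
    rw [e1, e2] at h1
    rw [mul_smul, mul_smul, ← h1, inv_smul_smul]
  obtain ⟨m, hm⟩ := hgen _ _ htrans
  refine ⟨G (trace Γ c'), Finset.mem_insert_of_mem (Finset.mem_image_of_mem G ?_), m, ?_⟩
  · rw [Set.Finite.mem_toFinset]; exact hmem
  · rw [isConj_iff]
    exact ⟨g⁻¹, by rw [inv_inv]; exact hm⟩

end Vale.Agent.Lib.P216
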