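import Vale.Agent.Lib.P216.Axis

namespace Vale.Agent.Lib.P216

variable {Γ : Type*} {X : Type*} [Group Γ] [MetricSpace X] [MulAction Γ X]

omit [Group Γ] [MulAction Γ X] in
theorem IsGeodesic.continuous {c : ℝ → X} (hc : IsGeodesic c) : Continuous c := by
  rw [continuous_iff_continuousAt]
  intro t
  rw [Metric.continuousAt_iff]
  intro ε' hε'
  obtain ⟨ε, hε, h⟩ := hc t
  refine ⟨min ε ε', lt_min hε hε', fun {s} hs => ?_⟩
  rw [Real.dist_eq] at hs
  have h1 : |s - t| < ε := lt_of_lt_of_le hs (min_le_left _ _)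
  have h2 : |s - t| < ε' := lt_of_lt_of_le hs (min_le_right _ _)
  rw [abs_lt] at h1
  rw [h s ⟨by linarith, by linarith⟩ t ⟨by linarith, by linarith⟩]
  exact h2

omit [Group Γ] [MulAction Γ X] in
theorem IsGeodesic.comp_affine {c : ℝ → X} (hc : IsGeodesic c) {e : ℝ} (he : e = 1 ∨ e = -1)
    (b : ℝ) : IsGeodesic (fun t => c (e * t + b)) := by
  intro t
  obtain ⟨ε, hε, h⟩ := hc (e * t + b)
  refine ⟨ε, hε, fun s hs s' hs' => ?_⟩
  rw [Set.mem_Ioo] at hs hs'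
  rcases he with rfl | rfl
  · rw [h (1 * s + b) ⟨by linarith, by linarith⟩ (1 * s' + b) ⟨by linarith, by linarith⟩]
    congr 1; ring
  · rw [h (-1 * s + b) ⟨by linarith, by linarith⟩ (-1 * s' + b) ⟨by linarith, by linarith⟩]
    rw [← abs_neg]
    congr 1; ring

theorem IsGeodesic.smul (h : IsDeckAction Γ X) {c : ℝ → X} (hc : IsGeodesic c) (g : Γ) :
    IsGeodesic (fun t => g • c t) := by
  intro t
  obtain ⟨ε, hε, h'⟩ := hc t
  exact ⟨ε, hε, fun s hs s' hs' => by rw [h.isom, h' s hs s' hs']⟩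

theorem countable_of_proper (h : IsDeckAction Γ X) (x : X) : Countable Γ := by
  have h1 : (Set.univ : Set Γ) = ⋃ n : ℕ, {g : Γ | dist x (g • x) ≤ n} := by
    ext g
    simp only [Set.mem_univ, Set.mem_iUnion, Set.mem_ofPred_eq, true_iff]
    exact exists_nat_ge _
  rw [← Set.countable_univ_iff, h1]
  exact Set.countable_iUnion (fun n => (h.proper x n).countable)

theorem affine_of_isometry {a b : ℝ} (hab : a < b) (φ : ℝ → ℝ)
    (h : ∀ s ∈ Set.Ioo a b, ∀ t ∈ Set.Ioo a b, |φ s - φ t| = |s - t|) :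
    ∃ e b0 : ℝ, (e = 1 ∨ e = -1) ∧ ∀ t ∈ Set.Ioo a b, φ t = e * t + b0 := by
  set t0 : ℝ := (2 * a + b) / 3 with ht0
  set t1 : ℝ := (a + 2 * b) / 3 with ht1
  have m0 : t0 ∈ Set.Ioo a b := ⟨by rw [ht0]; linarith, by rw [ht0]; linarith⟩
  have m1 : t1 ∈ Set.Ioo a b := ⟨by rw [ht1]; linarith, by rw [ht1]; linarith⟩
  have hD : 0 < t1 - t0 := by rw [ht0, ht1]; linarith
  have hsq : ∀ s ∈ Set.Ioo a b, ∀ t ∈ Set.Ioo a b, (φ s - φ t) ^ 2 = (s - t) ^ 2 := by
    intro s hs t ht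
    rw [← sq_abs, h s hs t ht, sq_abs]
  rcases abs_eq_abs.1 (h t1 m1 t0 m0) with he | he
  · refine ⟨1, φ t0 - t0, Or.inl rfl, fun t ht => ?_⟩
    have e1 := hsq t ht t0 m0
    have e2 := hsq t ht t1 m1
    have e3 : (t1 - t0) * (φ t - φ t0) = (t1 - t0) * (t - t0) := by
      have : φ t1 = φ t0 + (t1 - t0) := by linarith
      rw [this] at e2
      nlinarith
    have := mul_left_cancel₀ hD.ne' e3
    linarith
  · refine ⟨-1, φ t0 + t0, Or.inr rfl, fun t ht => ?_⟩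
    have e1 := hsq t ht t0 m0
    have e2 := hsq t ht t1 m1
    have e3 : (t1 - t0) * (φ t - φ t0) = (t1 - t0) * (-(t - t0)) := by
      have : φ t1 = φ t0 - (t1 - t0) := by linarith
      rw [this] at e2
      nlinarith
    have := mul_left_cancel₀ hD.ne' e3
    linarith

/-- `c` is distance-realising on `[p, q]` -/
def IsoOn (c : ℝ → X) (p q : ℝ) : Prop :=
  ∀ s ∈ Set.Icc p q, ∀ s' ∈ Set.Icc p q, dist (c s) (c s') = |s - s'|

omit [Group Γ] [MulAction Γ X] in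
theorem IsGeodesic.exists_rat {c : ℝ → X} (hc : IsGeodesic c) (u : ℝ) :
    ∃ p q : ℚ, u ∈ Set.Icc (p : ℝ) q ∧ IsoOn c p q := by
  obtain ⟨ε, hε, h⟩ := hc u
  obtain ⟨p, hp1, hp2⟩ := exists_rat_btwn (show u - ε < u by linarith)
  obtain ⟨q, hq1, hq2⟩ := exists_rat_btwn (show u < u + ε by linarith)
  refine ⟨p, q, ⟨hp2.le, hq1.le⟩, fun s hs s' hs' => ?_⟩
  exact h s ⟨by linarith [hs.1], by linarith [hs.2]⟩ s' ⟨by linarith [hs'.1], by linarith [hs'.2]⟩

/-- Two geodesic lines, one of which runs inside the `Γ`-orbit of the other, differ by an element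
of `Γ` and an isometry of the parameter line. -/
theorem rigidity (h : IsDeckAction Γ X) {c c' : ℝ → X} (hc : IsGeodesic c) (hc' : IsGeodesic c')
    (hsub : ∀ t, c' t ∈ trace Γ c) :
    ∃ (g : Γ) (e b : ℝ), (e = 1 ∨ e = -1) ∧ ∀ t, c' t = g • c (e * t + b) := by
  classical
  have : Countable Γ := countable_of_proper h (c 0)
  let A : Γ × ℚ × ℚ → Set ℝ := fun i =>
    {t | IsoOn c i.2.1 i.2.2 ∧ c' t ∈ (fun x => i.1 • x) '' (c '' Set.Icc (i.2.1 : ℝ) i.2.2)}
  have hclosed : ∀ i, IsClosed (A i) := by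
    rintro ⟨g, p, q⟩
    by_cases hiso : IsoOn c p q
    · have hcomp : IsCompact ((fun x => g • x) '' (c '' Set.Icc (p : ℝ) q)) :=
        (isCompact_Icc.image hc.continuous).image (h.continuous_smul g)
      have : A (g, p, q) = c' ⁻¹' ((fun x => g • x) '' (c '' Set.Icc (p : ℝ) q)) := by
        ext t
        simp only [A, Set.mem_ofPred_eq, Set.mem_preimage]
        exact ⟨fun hh => hh.2, fun hh => ⟨hiso, hh⟩⟩
      rw [this]
      exact hcomp.isClosed.preimage hc'.continuous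
    · have : A (g, p, q) = ∅ := by
        ext t
        simp only [A, Set.mem_ofPred_eq, Set.mem_empty_iff_false, iff_false]
        exact fun hh => hiso hh.1
      rw [this]
      exact isClosed_empty
  have hU : ⋃ i, A i = Set.univ := by
    ext t
    simp only [Set.mem_iUnion, Set.mem_univ, iff_true]
    obtain ⟨g, u, hu⟩ := hsub t
    obtain ⟨p, q, hupq, hiso⟩ := hc.exists_rat u
    exact ⟨(g, p, q), hiso, c u, ⟨u, hupq, rfl⟩, hu.symm⟩
  obtain ⟨⟨g, p, q⟩, t0, ht0⟩ := nonempty_interior_of_iUnion_of_closed hclosed hU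
  rw [mem_interior_iff_mem_nhds, Metric.mem_nhds_iff] at ht0
  obtain ⟨ε1, hε1, hball⟩ := ht0
  obtain ⟨ε2, hε2, hiso'⟩ := hc' t0
  set ε : ℝ := min ε1 ε2 with hε
  have hεpos : 0 < ε := lt_min hε1 hε2
  have hmem : ∀ t ∈ Set.Ioo (t0 - ε) (t0 + ε), ∃ u ∈ Set.Icc (p : ℝ) q, c' t = g • c u := by
    intro t ht
    have : t ∈ Metric.ball t0 ε1 := by
      rw [Real.ball_eq_Ioo]
      exact ⟨by linarith [ht.1, min_le_left ε1 ε2], by linarith [ht.2, min_le_left ε1 ε2]⟩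
    obtain ⟨_, x, ⟨u, hu, rfl⟩, hx⟩ := hball this
    exact ⟨u, hu, hx.symm⟩
  have hiso : IsoOn c p q := by
    have : t0 ∈ Metric.ball t0 ε1 := Metric.mem_ball_self hε1
    exact (hball this).1
  let φ : ℝ → ℝ := fun t => if ht : t ∈ Set.Ioo (t0 - ε) (t0 + ε) then (hmem t ht).choose else 0
  have hφ : ∀ t ∈ Set.Ioo (t0 - ε) (t0 + ε), φ t ∈ Set.Icc (p : ℝ) q ∧ c' t = g • c (φ t) := by
    intro t ht
    simp only [φ, dif_pos ht]
    exact (hmem t ht).choose_spec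
  have hφiso : ∀ s ∈ Set.Ioo (t0 - ε) (t0 + ε), ∀ t ∈ Set.Ioo (t0 - ε) (t0 + ε),
      |φ s - φ t| = |s - t| := by
    intro s hs t ht
    rw [← hiso (φ s) (hφ s hs).1 (φ t) (hφ t ht).1, ← h.isom g, ← (hφ s hs).2, ← (hφ t ht).2]
    exact hiso' s ⟨by linarith [hs.1, min_le_right ε1 ε2], by linarith [hs.2, min_le_right ε1 ε2]⟩
      t ⟨by linarith [ht.1, min_le_right ε1 ε2], by linarith [ht.2, min_le_right ε1 ε2]⟩
  obtain ⟨e, b0, he, haff⟩ := affine_of_isometry (by linarith) φ hφiso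
  refine ⟨g, e, b0, he, ?_⟩
  have hgeo : IsGeodesic (fun t => g • c (e * t + b0)) :=
    IsGeodesic.smul h (hc.comp_affine he b0) g
  have := h.nonbranching c' (fun t => g • c (e * t + b0)) hc' hgeo
    ⟨t0 - ε, t0 + ε, by linarith, fun t ht => by rw [(hφ t ht).2, haff t ht]⟩
  intro t
  exact congrFun this t

end Vale.Agent.Lib.P216
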